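/-
Helper42 — S0175 project, Part II, package RG3 (core): regularity of the contact map `bplus`, its
explicit left inverse `psiPlus`, and measurability of `bplus`, `omegaG`, with the facts of the
packages RG1 (root functions `wA`, `Winv`) and SH (`0 < wMin s`) as explicit hypotheses.
The interface statements themselves are in `Crest.Agent.Helper42.Geom.RG3`.
-/
import Crest.Agent.Helper32.GeomDefs

set_option autoImplicit false
set_option linter.unusedSectionVars false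
open MeasureTheory Set Filter Topology
open scoped ENNReal ContDiff
open Crest.AnalysisR.OT
open Crest.Agent.Helper32

namespace Crest.Agent.Helper42

/-! ### the complex factor `betaC` -/

/-- `betaC` in the form `a + b * I` -/
theorem betaC_eq (s w σ r : ℝ) :
    betaC s w σ r = ((-(shP w / (2 * w ^ 2)) : ℝ) : ℂ) +
      ((σ * shL23 s w / (2 * r) : ℝ) : ℂ) * Complex.I := by
  exact Complex.mk_eq_add_mul_I _ _

theorem normSq_betaC (s w σ r : ℝ) :
    ‖betaC s w σ r‖ ^ 2 = (shP w / (2 * w ^ 2)) ^ 2 + (σ * shL23 s w / (2 * r)) ^ 2 := by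
  rw [Complex.sq_norm, Complex.normSq_apply]
  simp only [betaC]
  ring

theorem betaC_ne_zero (s w σ r : ℝ) (hw : 0 < w) (hw' : 2 * w ^ 2 < 1) : betaC s w σ r ≠ 0 := by
  intro h
  have h1 : (betaC s w σ r).re = 0 := by rw [h]; rfl
  have h2 : (betaC s w σ r).re = -(shP w / (2 * w ^ 2)) := rfl
  have hP : 0 < shP w := by unfold shP; linarith
  have h3 : 0 < shP w / (2 * w ^ 2) := by positivity
  linarith

theorem measurable_betaC {X : Type*} [MeasurableSpace X] (s σ : ℝ) (W R : X → ℝ)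
    (hW : Measurable W) (hR : Measurable R) :
    Measurable fun x => betaC s (W x) σ (R x) := by
  simp_rw [betaC_eq]
  have h1 : Measurable fun x => shP (W x) := by
    unfold shP; exact measurable_const.sub (measurable_const.mul (hW.pow_const 2))
  have h2 : Measurable fun x => shL23 s (W x) := by
    unfold shL23; exact hW.pow_const _
  refine (Complex.measurable_ofReal.comp ?_).add ((Complex.measurable_ofReal.comp ?_).mul_const _)
  · exact (h1.div (measurable_const.mul (hW.pow_const 2))).neg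
  · exact (measurable_const.mul h2).div (measurable_const.mul hR)

theorem contDiffAt_betaC {X : Type*} [NormedAddCommGroup X] [NormedSpace ℝ X] (s σ : ℝ)
    (W R : X → ℝ) (x₀ : X) (hW : ContDiffAt ℝ ∞ W x₀) (hR : ContDiffAt ℝ ∞ R x₀)
    (hW0 : 0 < W x₀) (hR0 : R x₀ ≠ 0) :
    ContDiffAt ℝ ∞ (fun x => betaC s (W x) σ (R x)) x₀ := by
  simp_rw [betaC_eq]
  have hP : ContDiffAt ℝ ∞ (fun x => shP (W x)) x₀ := by
    unfold shP; exact contDiffAt_const.sub (contDiffAt_const.mul (hW.pow 2))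
  have hL : ContDiffAt ℝ ∞ (fun x => shL23 s (W x)) x₀ := by
    unfold shL23; exact hW.rpow_const_of_ne hW0.ne'
  have h1 : ContDiffAt ℝ ∞ (fun x => -(shP (W x) / (2 * W x ^ 2))) x₀ :=
    (hP.div (contDiffAt_const.mul (hW.pow 2)) (by positivity)).neg
  have h2 : ContDiffAt ℝ ∞ (fun x => σ * shL23 s (W x) / (2 * R x)) x₀ :=
    (contDiffAt_const.mul hL).div (contDiffAt_const.mul hR) (by simpa using hR0)
  exact (Complex.ofRealCLM.contDiff.contDiffAt.comp x₀ h1).add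
    ((Complex.ofRealCLM.contDiff.contDiffAt.comp x₀ h2).mul contDiffAt_const)

/-! ### RG3 with the needed facts of RG1 / SH as hypotheses -/

section
variable {k : ℕ} (s w2 : ℝ)

theorem bplus_measurable_of (hwA : Measurable (wA (k := k) s w2)) :
    Measurable (bplus (k := k) s w2) := by
  unfold bplus bvert
  refine Measurable.prodMk ?_ ?_
  · exact measurable_fst.mul (measurable_betaC s 1 _ _ hwA measurable_fst.norm)
  · have hC : Measurable fun x : MS k => shC (wA s w2 x) := by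
      unfold shC shP
      exact (measurable_const.sub (measurable_const.mul (hwA.pow_const 2))).div
        ((measurable_const.mul (hwA.pow_const 2)).add measurable_const)
    exact hC.neg.smul measurable_snd

theorem omegaG_measurable_of (hwA : Measurable (wA (k := k) s w2)) :
    Measurable (omegaG (k := k) s w2) := by
  unfold omegaG
  exact (measurable_betaC s (-1) _ _ hwA measurable_fst.norm).div
    (measurable_betaC s 1 _ _ hwA measurable_fst.norm)

theorem bplus_contDiffOn_of (hwMin : 0 < wMin s) (hAdom : IsOpen (Adom (k := k) s w2))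
    (hwAs : ContDiffOn ℝ ∞ (wA (k := k) s w2) (Adom s w2))
    (hspec : ∀ x ∈ Adom (k := k) s w2, wMin s < wA s w2 x ∧ wA s w2 x < w2 ∧
      shF s (wA s w2 x) (‖x.1‖ ^ 2) (‖x.2‖ ^ 2) = 0) :
    ContDiffOn ℝ ∞ (bplus (k := k) s w2) (Adom s w2) := by
  intro x hx
  apply ContDiffAt.contDiffWithinAt
  have hW : ContDiffAt ℝ ∞ (wA (k := k) s w2) x := hwAs.contDiffAt (hAdom.mem_nhds hx)
  have hW0 : 0 < wA s w2 x := hwMin.trans (hspec x hx).1
  have hx1 : x.1 ≠ 0 := hx.1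
  have hR : ContDiffAt ℝ ∞ (fun y : MS k => ‖y.1‖) x := contDiffAt_fst.norm ℝ hx1
  unfold bplus bvert
  refine ContDiffAt.prodMk ?_ ?_
  · exact contDiffAt_fst.mul
      (contDiffAt_betaC s 1 _ _ x hW hR hW0 (norm_ne_zero_iff.2 hx1))
  · have hC : ContDiffAt ℝ ∞ (fun y : MS k => shC (wA s w2 y)) x := by
      unfold shC shP
      exact (contDiffAt_const.sub (contDiffAt_const.mul (hW.pow 2))).div
        ((contDiffAt_const.mul (hW.pow 2)).add contDiffAt_const) (by positivity)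
    exact hC.neg.smul contDiffAt_snd

theorem psiPlus_bplus_of (hwMin : 0 < wMin s) (hw2' : 2 * w2 ^ 2 < 1)
    (hspec : ∀ x ∈ Adom (k := k) s w2, wMin s < wA s w2 x ∧ wA s w2 x < w2 ∧
      shF s (wA s w2 x) (‖x.1‖ ^ 2) (‖x.2‖ ^ 2) = 0)
    (hWinv : ∀ w, wMin s < w → w < w2 →
      Winv s w2 (shb s w) = w ∧ ContDiffAt ℝ ∞ (Winv s w2) (shb s w))
    (x : MS k) (hx : x ∈ Adom s w2) :
    psiPlus s w2 (bplus s w2 x) = x ∧
      ContDiffAt ℝ ∞ (psiPlus (k := k) s w2) (bplus s w2 x) := by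
  obtain ⟨hw1, hw2lt, hroot⟩ := hspec x hx
  have hy1 : (bplus s w2 x).1 = x.1 * betaC s (wA s w2 x) 1 ‖x.1‖ := rfl
  have hy2 : (bplus s w2 x).2 = -(shC (wA s w2 x)) • x.2 := rfl
  generalize hwdef : wA s w2 x = w at hw1 hw2lt hroot hy1 hy2
  generalize hydef : bplus s w2 x = y at hy1 hy2
  have hw0 : 0 < w := hwMin.trans hw1
  have hw' : 2 * w ^ 2 < 1 := by nlinarith
  have hx1 : x.1 ≠ 0 := hx.1
  have hr0 : 0 < ‖x.1‖ := norm_pos_iff.2 hx1
  have hP : 0 < shP w := by unfold shP; linarith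
  have hC : 0 < shC w := by unfold shC; positivity
  have hn1 : ‖y.1‖ ^ 2 = ‖x.1‖ ^ 2 * (shP w) ^ 2 / (4 * w ^ 4) + (shL23 s w) ^ 2 / 4 := by
    rw [hy1, norm_mul, mul_pow, normSq_betaC]
    field_simp
    ring
  have hn2 : ‖y.2‖ ^ 2 = (shC w) ^ 2 * ‖x.2‖ ^ 2 := by
    rw [hy2, norm_smul, mul_pow, norm_neg, Real.norm_eq_abs, sq_abs]
  have hτ : ‖y.1‖ ^ 2 + 4 * ‖y.2‖ ^ 2 = shb s w := by
    have hroot' : shH s w = ‖x.1‖ ^ 2 / (4 * w ^ 4) + 4 * ‖x.2‖ ^ 2 / (2 * w ^ 2 + 1) ^ 2 := by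
      unfold shF at hroot; linarith
    rw [hn1, hn2]
    unfold shb
    rw [hroot']
    unfold shC
    field_simp
    ring
  obtain ⟨hWw, hWsm⟩ := hWinv w hw1 hw2lt
  have hinner : ‖y.1‖ ^ 2 - (shL23 s w) ^ 2 / 4 = (‖x.1‖ * shP w / (2 * w ^ 2)) ^ 2 := by
    rw [hn1]; field_simp; ring
  have hϱ : 2 * w ^ 2 * Real.sqrt (‖y.1‖ ^ 2 - (shL23 s w) ^ 2 / 4) / shP w = ‖x.1‖ := by
    rw [hinner, Real.sqrt_sq (by positivity)]
    field_simp
  have hβ0 : betaC s w 1 ‖x.1‖ ≠ 0 := betaC_ne_zero s w 1 ‖x.1‖ hw0 hw'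
  constructor
  · unfold psiPlus
    rw [hτ, hWw, hϱ]
    refine Prod.ext ?_ ?_
    · show y.1 / betaC s w 1 ‖x.1‖ = x.1
      rw [hy1, mul_div_assoc, div_self hβ0, mul_one]
    · show -(1 / shC w) • y.2 = x.2
      rw [hy2, smul_smul]
      have : -(1 / shC w) * -(shC w) = 1 := by field_simp
      rw [this, one_smul]
  · have hτsm : ContDiffAt ℝ ∞ (fun z : MS k => ‖z.1‖ ^ 2 + 4 * ‖z.2‖ ^ 2) y :=
      (contDiffAt_fst.norm_sq ℝ).add (contDiffAt_const.mul (contDiffAt_snd.norm_sq ℝ))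
    have hWf : ContDiffAt ℝ ∞ (fun z : MS k => Winv s w2 (‖z.1‖ ^ 2 + 4 * ‖z.2‖ ^ 2)) y := by
      have h1 := hWsm
      rw [← hτ] at h1
      exact h1.comp y hτsm
    have hWy : Winv s w2 (‖y.1‖ ^ 2 + 4 * ‖y.2‖ ^ 2) = w := by rw [hτ, hWw]
    generalize hWfdef : (fun z : MS k => Winv s w2 (‖z.1‖ ^ 2 + 4 * ‖z.2‖ ^ 2)) = Wf at hWf
    have hWy' : Wf y = w := by rw [← hWfdef]; exact hWy
    have hLf : ContDiffAt ℝ ∞ (fun z => shL23 s (Wf z)) y := by
      unfold shL23; exact hWf.rpow_const_of_ne (by rw [hWy']; exact hw0.ne')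
    have hPf : ContDiffAt ℝ ∞ (fun z => shP (Wf z)) y := by
      unfold shP; exact contDiffAt_const.sub (contDiffAt_const.mul (hWf.pow 2))
    have hinn : ContDiffAt ℝ ∞ (fun z : MS k => ‖z.1‖ ^ 2 - (shL23 s (Wf z)) ^ 2 / 4) y :=
      (contDiffAt_fst.norm_sq ℝ).sub ((hLf.pow 2).div_const 4)
    have hinn0 : ‖y.1‖ ^ 2 - (shL23 s (Wf y)) ^ 2 / 4 ≠ 0 := by
      rw [hWy', hinner]; positivity
    have hsq : ContDiffAt ℝ ∞
        (fun z : MS k => Real.sqrt (‖z.1‖ ^ 2 - (shL23 s (Wf z)) ^ 2 / 4)) y := hinn.sqrt hinn0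
    have hϱf : ContDiffAt ℝ ∞ (fun z : MS k =>
        2 * (Wf z) ^ 2 * Real.sqrt (‖z.1‖ ^ 2 - (shL23 s (Wf z)) ^ 2 / 4) / shP (Wf z)) y :=
      ((contDiffAt_const.mul (hWf.pow 2)).mul hsq).div hPf (by rw [hWy']; exact hP.ne')
    have hβf : ContDiffAt ℝ ∞ (fun z : MS k => betaC s (Wf z) 1
        (2 * (Wf z) ^ 2 * Real.sqrt (‖z.1‖ ^ 2 - (shL23 s (Wf z)) ^ 2 / 4) / shP (Wf z))) y :=
      contDiffAt_betaC s 1 Wf _ y hWf hϱf (by rw [hWy']; exact hw0)
        (by rw [hWy', hϱ]; exact hr0.ne')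
    have hCf : ContDiffAt ℝ ∞ (fun z => shC (Wf z)) y := by
      unfold shC shP
      exact (contDiffAt_const.sub (contDiffAt_const.mul (hWf.pow 2))).div
        ((contDiffAt_const.mul (hWf.pow 2)).add contDiffAt_const) (by positivity)
    have hfin : ContDiffAt ℝ ∞ (fun z : MS k => (z.1 / betaC s (Wf z) 1
        (2 * (Wf z) ^ 2 * Real.sqrt (‖z.1‖ ^ 2 - (shL23 s (Wf z)) ^ 2 / 4) / shP (Wf z)),
        -(1 / shC (Wf z)) • z.2)) y := by
      refine ContDiffAt.prodMk ?_ ?_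
      · simp_rw [div_eq_mul_inv]
        refine contDiffAt_fst.mul (hβf.inv ?_)
        rw [hWy', hϱ]; exact hβ0
      · exact ((contDiffAt_const.div hCf (by rw [hWy']; exact hC.ne')).neg).smul contDiffAt_snd
    rw [← hWfdef] at hfin
    exact hfin

end

end Crest.Agent.Helper42
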