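/-
Helper42 — S0175 project, Part II, package RG3: regularity of the contact map `bplus`, its explicit
left inverse `psiPlus`, and measurability of `bplus`, `omegaG`.
Statements verbatim from the interface of helper32 (`GeomSpec`, section RG); inputs:
`RG3Core` (own), RG1/RG2 and SH-a of helper62.
-/
import Crest.Agent.Helper42.Geom.RG3Core
import Crest.Agent.Helper62.Geom.RG1

set_option autoImplicit false
set_option linter.unusedSectionVars false
open MeasureTheory Set Filter Topology
open scoped ENNReal ContDiff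
open Crest.AnalysisR.OT
open Crest.Agent.Helper32

namespace Crest.Agent.Helper42

/-! ### RG3, statements verbatim from `Crest.Agent.Helper32.Spec` -/

section RG
variable {k : ℕ} (s w2 : ℝ) (hs : 0 < s) (hw2 : wMin s < w2) (hw2' : 2 * w2 ^ 2 < 1)
include hs hw2 hw2'

/-- (RG3) the contact map -/
theorem bplus_measurable : Measurable (bplus (k := k) s w2) :=
  bplus_measurable_of s w2 (Helper62.wA_measurable s w2 hs hw2 hw2')

theorem bplus_contDiffOn : ContDiffOn ℝ ∞ (bplus (k := k) s w2) (Adom s w2) :=
  bplus_contDiffOn_of s w2 (Helper62.SHa.wMin_pos s hs) (Helper62.isOpen_Adom s w2 hs hw2 hw2')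
    (Helper62.wA_contDiffOn s w2 hs hw2 hw2') (fun x hx => Helper62.wA_spec s w2 hs hw2 hw2' x hx)

theorem psiPlus_bplus (x : MS k) (hx : x ∈ Adom s w2) :
    psiPlus s w2 (bplus s w2 x) = x ∧ ContDiffAt ℝ ∞ (psiPlus (k := k) s w2) (bplus s w2 x) :=
  psiPlus_bplus_of s w2 (Helper62.SHa.wMin_pos s hs) hw2'
    (fun x hx => Helper62.wA_spec s w2 hs hw2 hw2' x hx)
    (fun w hw hw' => Helper62.Winv_spec s w2 hs hw2 hw2' w hw hw') x hx

theorem omegaG_measurable : Measurable (omegaG (k := k) s w2) :=
  omegaG_measurable_of s w2 (Helper62.wA_measurable s w2 hs hw2 hw2')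

end RG

end Crest.Agent.Helper42
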